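import Vale.Agent.Lib.P072.H28.Full

/-!
# P072: permanence of weakly reversible mass-action systems with `dim S = 1`

For a weakly reversible network whose stoichiometric subspace is a line (any number of
species and of linkage classes) and constant positive rates, the mass-action system is
permanent on every positive stoichiometric class `P`: from every point of `P` there is a
solution defined for all `t ≥ 0`, it stays in `P`, every positive solution on an interval
`[0, T)` from that point is a restriction of it, and there is a compact `K ⊆ P`, the same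
for all starting points, in which every such solution eventually stays.
-/

namespace Vale.Agent.Results.P072.H28_OneDimPermanence

open Vale.Agent.Lib.P072.H28 Set

theorem result (d : ℕ) (R : Finset (Rxn d)) (k : Rxn d → ℝ)
    (hne : ∀ r ∈ R, r.1 ≠ r.2) (hk : ∀ r ∈ R, 0 < k r)
    (hwr : WeaklyReversible R) (hdim : Module.finrank ℝ (stoich R) = 1)
    (c : Fin d → ℝ) (hc : ∀ i, 0 < c i) :
    ∃ K : Set (Fin d → ℝ), IsCompact K ∧ K ⊆ posClass R c ∧
      ∀ x0 ∈ posClass R c, ∃ X : ℝ → Fin d → ℝ, X 0 = x0 ∧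
        (∀ t ∈ Ici (0 : ℝ), X t ∈ posClass R c ∧
          HasDerivWithinAt X (field R k (X t)) (Ici 0) t) ∧
        (∃ T, ∀ t, T ≤ t → X t ∈ K) ∧
        (∀ (T : ℝ) (x : ℝ → Fin d → ℝ), x 0 = x0 →
          (∀ t ∈ Ico 0 T, (∀ i, 0 < x t i) ∧
            HasDerivWithinAt x (field R k (x t)) (Ico 0 T) t) →
          ∀ t ∈ Ico 0 T, x t = X t) := by
  obtain ⟨K, hK, hKP, -, habs⟩ :=
    permanence_general R hne hwr hdim c hc k k hk (fun _ _ => le_rfl)
  obtain ⟨v, μ, a, b, hv, hμ, hmem, haJ, hbJ, hapos, hbneg⟩ :=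
    line_data R hne hwr hdim c hc k hk
  refine ⟨K, hK, hKP, ?_⟩
  intro x0 hx0
  obtain ⟨s0, hs0⟩ := (hmem _).mp hx0.1
  have hx0' : x0 = c + s0 • v := by rw [← hs0]; abel
  have hs0J : ∀ i, 0 < c i + s0 * v i := by
    intro i
    have := hx0.2 i
    rw [hx0'] at this
    simpa using this
  obtain ⟨s, hs0', hs⟩ := global_solution R v μ hμ c k a b haJ hbJ hapos hbneg s0 hs0J
  have hXsol : ∀ t ∈ Ici (0 : ℝ), (∀ i, 0 < (c + s t • v) i) ∧
      HasDerivWithinAt (fun t => c + s t • v) (field R k (c + s t • v)) (Ici 0) t := by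
    intro t ht
    refine ⟨fun i => ?_, (hs t ht).2⟩
    have := (hs t ht).1 i
    simpa using this
  refine ⟨fun t => c + s t • v, by simp [hs0', hx0'], ?_, ?_, ?_⟩
  · intro t ht
    refine ⟨⟨?_, (hXsol t ht).1⟩, (hXsol t ht).2⟩
    show c + s t • v - c ∈ stoich R
    rw [add_sub_cancel_left]
    exact (hmem _).mpr ⟨s t, rfl⟩
  · refine habs (fun _ => k) (fun _ r _ => ⟨le_rfl, le_rfl⟩) (fun t => c + s t • v) ?_ ⟨?_, ?_⟩
    · show c + s 0 • v ∈ posClass R c
      rw [hs0', ← hx0']
      exact hx0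
    · exact fun t ht => (hXsol t ht).2.continuousWithinAt
    · exact fun t ht => ⟨(hXsol t ht).1, (hXsol t ht).2.mono (Ici_subset_Ici.mpr ht)⟩
  · intro T x hxx0 hsol t ht
    refine local_unique R v μ hv hμ c k a b hapos hbneg (Ico 0 T) (fun t ht => ht.1)
      (fun t ht τ hτ => ⟨hτ.1, lt_of_le_of_lt hτ.2 ht.2⟩) x (fun t => c + s t • v) s0
      (by rw [hxx0, hx0']) (by simp [hs0']) ⟨?_, ?_⟩ ⟨?_, ?_⟩ t ht
    · exact fun t ht => (hsol t ht).2.continuousWithinAt
    · exact fun t ht => ⟨(hsol t ht).1,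
        (hsol t ht).2.mono_of_mem_nhdsWithin (Ico_mem_nhdsGE_of_mem ht)⟩
    · exact fun t ht => ((hXsol t ht.1).2.continuousWithinAt).mono Ico_subset_Ici_self
    · exact fun t ht => ⟨(hXsol t ht.1).1, (hXsol t ht.1).2.mono (Ici_subset_Ici.mpr ht.1)⟩

end Vale.Agent.Results.P072.H28_OneDimPermanence
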