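import Vale.Agent.Lib.P072.H28.Perm

/-!
# P072: weakly reversible mass-action systems whose stoichiometric subspace is a line

Permanence, in a-priori form and uniformly for time-dependent rates in `[e, 1/e]`:
on every positive stoichiometric class `P` of a weakly reversible network with
`dim S = 1` (any number of species and of linkage classes) there is a compact set `K ⊆ P`
absorbing every global positive solution, and no positive solution defined on `[0, T)`
can leave a compact subset of `P` that depends only on its starting point.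
-/

namespace Vale.Agent.Results.P072.H28_OneDimVariableRates

open Vale.Agent.Lib.P072.H28 Set

theorem result (d : ℕ) (R : Finset (Rxn d)) (hne : ∀ r ∈ R, r.1 ≠ r.2)
    (hwr : WeaklyReversible R) (hdim : Module.finrank ℝ (stoich R) = 1)
    (c : Fin d → ℝ) (hc : ∀ i, 0 < c i) (e : ℝ) (he : 0 < e) (he1 : e ≤ 1) :
    ∃ K : Set (Fin d → ℝ), IsCompact K ∧ K ⊆ posClass R c ∧
      (∀ x0 ∈ posClass R c, ∃ K0 : Set (Fin d → ℝ), IsCompact K0 ∧ K0 ⊆ posClass R c ∧
        ∀ k : ℝ → Rxn d → ℝ, (∀ t, ∀ r ∈ R, e ≤ k t r ∧ k t r ≤ e⁻¹) →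
        ∀ (T : ℝ) (x : ℝ → Fin d → ℝ), x 0 = x0 →
          (∀ t ∈ Ico 0 T, (∀ i, 0 < x t i) ∧
            HasDerivWithinAt x (field R (k t) (x t)) (Ico 0 T) t) →
          ∀ t ∈ Ico 0 T, x t ∈ K0) ∧
      (∀ k : ℝ → Rxn d → ℝ, (∀ t, ∀ r ∈ R, e ≤ k t r ∧ k t r ≤ e⁻¹) →
        ∀ x : ℝ → Fin d → ℝ, x 0 ∈ posClass R c →
          (∀ t ∈ Ici (0 : ℝ), (∀ i, 0 < x t i) ∧
            HasDerivWithinAt x (field R (k t) (x t)) (Ici 0) t) →
          ∃ T, ∀ t, T ≤ t → x t ∈ K) := by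
  have hee : e ≤ e⁻¹ := le_trans he1 ((one_le_inv₀ he).mpr he1)
  obtain ⟨K, hK, hKP, hesc, habs⟩ := permanence_general R hne hwr hdim c hc
    (fun _ => e) (fun _ => e⁻¹) (fun _ _ => he) (fun _ _ => hee)
  refine ⟨K, hK, hKP, ?_, ?_⟩
  · intro x0 hx0
    obtain ⟨K0, hK0, hK0P, h⟩ := hesc x0 hx0
    refine ⟨K0, hK0, hK0P, ?_⟩
    intro k hk T x hx0' hsol
    refine h k hk (Ico 0 T) x (fun t ht => ht.1)
      (fun t ht τ hτ => ⟨hτ.1, lt_of_le_of_lt hτ.2 ht.2⟩) hx0' ⟨?_, ?_⟩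
    · exact fun t ht => (hsol t ht).2.continuousWithinAt
    · exact fun t ht => ⟨(hsol t ht).1,
        (hsol t ht).2.mono_of_mem_nhdsWithin (Ico_mem_nhdsGE_of_mem ht)⟩
  · intro k hk x hx0 hsol
    refine habs k hk x hx0 ⟨?_, ?_⟩
    · exact fun t ht => (hsol t ht).2.continuousWithinAt
    · exact fun t ht => ⟨(hsol t ht).1, (hsol t ht).2.mono (Ici_subset_Ici.mpr ht)⟩

end Vale.Agent.Results.P072.H28_OneDimVariableRates
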